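import Vale.Agent.H10.WRRound3
import Vale.Agent.H10.WRClass
import Vale.Agent.H10.WRODE
import Vale.Agent.H10.WRDyn1
import Vale.Agent.H10.WRDyn3

/-!
# P072: the permanence conjecture for weakly reversible mass-action systems
-/

namespace Vale.Agent.Results.P072.Permanence

open Vale.Agent.H10.WR

/-- The mass-action system with reactions `R` and rates `k` is permanent on the positive
stoichiometric class of `c`: from every initial point of the class there is a positive
solution on `[0, ∞)`, which stays in the class and is the only solution (every positive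
solution on an interval `[0, T)` with the same initial point agrees with it); and there is a
compact subset of the class that eventually contains every such solution. -/
def PermanentOn {d : ℕ} (R : Finset (Rxn d)) (k : Rxn d → ℝ) (c : Fin d → ℝ) : Prop :=
  (∀ x0 ∈ posClass R c, ∃ x : ℝ → Fin d → ℝ, x 0 = x0 ∧ PosSol R k x ∧
    (∀ t : ℝ, 0 ≤ t → x t ∈ posClass R c) ∧
    ∀ (T : ℝ) (y : ℝ → Fin d → ℝ), y 0 = x0 → PosSolOn R k y T →
      ∀ t : ℝ, 0 ≤ t → t < T → y t = x t) ∧
  ∃ K : Set (Fin d → ℝ), IsCompact K ∧ K ⊆ posClass R c ∧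
    ∀ x : ℝ → Fin d → ℝ, x 0 ∈ posClass R c → PosSol R k x → ∃ T : ℝ, ∀ t : ℝ, T ≤ t → x t ∈ K

/-- **The permanence conjecture holds**: every weakly reversible mass-action system, with any
positive rate constants, is permanent on every positive stoichiometric class. -/
theorem result (d : ℕ) (hd : 1 ≤ d) (R : Finset (Rxn d)) (_hR : ∀ e ∈ R, e.1 ≠ e.2)
    (hwr : WeaklyReversible R) (k : Rxn d → ℝ) (hk : ∀ e ∈ R, 0 < k e)
    (c : Fin d → ℝ) (hc : ∀ i, 0 < c i) : PermanentOn R k c := by
  have HR := roundingThm d (by omega)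
  have hOn : ∀ {x : ℝ → Fin d → ℝ}, PosSol R k x → ∀ T, PosSolOn R k x T :=
    fun hx T t ht _ => hx t ht
  have hmem : ∀ {x : ℝ → Fin d → ℝ}, x 0 ∈ posClass R c → PosSol R k x →
      ∀ t : ℝ, 0 ≤ t → x t ∈ posClass R c := by
    intro x hx0 hx t ht
    refine ⟨(hx t ht).1, ?_⟩
    have h1 := sol_mem_class R k x (t + 1) (hOn hx (t + 1)) t ht (by linarith)
    have h2 := hx0.2
    have h3 : x t - c = (x t - x 0) + (x 0 - c) := by abel
    rw [h3]
    exact Submodule.add_mem _ h1 h2
  refine ⟨?_, ?_⟩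
  · intro x0 hx0
    obtain ⟨M, hM⟩ := apriori_bound HR R k hk hwr x0 hx0.1
    obtain ⟨x, hx1, hx2⟩ := exists_global R k hk x0 hx0.1 M hM
    refine ⟨x, hx1, hx2, hmem (by rw [hx1]; exact hx0) hx2, ?_⟩
    intro T y hy0 hy t ht htT
    exact sol_unique R k y x T hy (hOn hx2 T) (by rw [hy0, hx1]) t ht htT
  · obtain ⟨A, hA⟩ := eventual HR R k hk hwr
    obtain ⟨M, _, hM⟩ := class_bound R c hc A
    refine ⟨{x | x ∈ posClass R c ∧ ∀ i, |Real.log (x i)| ≤ M}, box_compact R c M,
      fun x hx => hx.1, ?_⟩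
    intro x hx0 hx
    obtain ⟨T, hT⟩ := hA x hx (persistent HR R k hk hwr x hx)
    refine ⟨max T 0, fun t ht => ?_⟩
    have h1 : x t ∈ posClass R c := hmem hx0 hx t ((le_max_right _ _).trans ht)
    obtain ⟨ρ, hρ1, hρ2⟩ := hT t ((le_max_left _ _).trans ht)
    exact ⟨h1, hM (x t) h1 ρ hρ1 hρ2⟩

end Vale.Agent.Results.P072.Permanence
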