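import Vale.Agent.H10.WRRound3
import Vale.Agent.H10.WRClass
import Vale.Agent.H10.WRODE
import Vale.Agent.H10.WRDyn1
import Vale.Agent.H10.WRDyn3
import Vale.Agent.H10.WRTODE
import Vale.Agent.H10.WRTDyn1
import Vale.Agent.H10.WRTDyn3

/-!
# P072: permanence of weakly reversible mass-action systems, constant and time-dependent rates
-/

namespace Vale.Agent.Results.P072.TimeDependentRates

open Vale.Agent.H10.WR

/-- The mass-action system with reactions `R` and constant rates `k` is permanent on the positive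
stoichiometric class of `c`: from every initial point of the class there is a positive
solution on `[0, ∞)`, which stays in the class and agrees with every positive
solution on an interval `[0, T)` with the same initial point; and there is a
compact subset of the class that eventually contains every positive solution on `[0, ∞)`
starting in the class. -/
def ConstPermanent {d : ℕ} (R : Finset (Rxn d)) (k : Rxn d → ℝ) (c : Fin d → ℝ) : Prop :=
  (∀ x0 ∈ posClass R c, ∃ x : ℝ → Fin d → ℝ, x 0 = x0 ∧ PosSol R k x ∧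
    (∀ t : ℝ, 0 ≤ t → x t ∈ posClass R c) ∧
    ∀ (T : ℝ) (y : ℝ → Fin d → ℝ), y 0 = x0 → PosSolOn R k y T →
      ∀ t : ℝ, 0 ≤ t → t < T → y t = x t) ∧
  ∃ K : Set (Fin d → ℝ), IsCompact K ∧ K ⊆ posClass R c ∧
    ∀ x : ℝ → Fin d → ℝ, x 0 ∈ posClass R c → PosSol R k x → ∃ T : ℝ, ∀ t : ℝ, T ≤ t → x t ∈ K

/-- Permanence on the positive stoichiometric class of `c`, uniformly over all measurable
time-dependent rates with values in `[ε, ε⁻¹]`: one compact subset `K` of the class serves
all such rates; for each of them, from every initial point of the class there is a positive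
solution on `[0, ∞)`, which stays in the class and agrees with every positive solution on an
interval `[0, T)` with the same initial point, and every positive solution on `[0, ∞)` starting
in the class is eventually in `K`. -/
def TimePermanent {d : ℕ} (R : Finset (Rxn d)) (ε : ℝ) (c : Fin d → ℝ) : Prop :=
  ∃ K : Set (Fin d → ℝ), IsCompact K ∧ K ⊆ posClass R c ∧
    ∀ k : ℝ → Rxn d → ℝ, RatesIn R ε k →
      (∀ x0 ∈ posClass R c, ∃ x : ℝ → Fin d → ℝ, x 0 = x0 ∧ TSol R k x ∧
        (∀ t : ℝ, 0 ≤ t → x t ∈ posClass R c) ∧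
        ∀ (T : ℝ) (y : ℝ → Fin d → ℝ), y 0 = x0 → TSolOn R k y T →
          ∀ t : ℝ, 0 ≤ t → t < T → y t = x t) ∧
      ∀ x : ℝ → Fin d → ℝ, x 0 ∈ posClass R c → TSol R k x → ∃ T : ℝ, ∀ t : ℝ, T ≤ t → x t ∈ K

/-- **The permanence conjecture, in the strong form**: every weakly reversible mass-action system
is permanent on every positive stoichiometric class, for all positive constant rates, and
for all measurable time-dependent rates with values in `[ε, ε⁻¹]`. -/
theorem result (d : ℕ) (hd : 1 ≤ d) (R : Finset (Rxn d)) (_hR : ∀ e ∈ R, e.1 ≠ e.2)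
    (hwr : WeaklyReversible R) (c : Fin d → ℝ) (hc : ∀ i, 0 < c i) :
    (∀ k : Rxn d → ℝ, (∀ e ∈ R, 0 < k e) → ConstPermanent R k c) ∧
    (∀ ε : ℝ, 0 < ε → TimePermanent R ε c) := by
  have HR := roundingThm d (by omega)
  refine ⟨?_, ?_⟩
  · intro k hk
    have hOn : ∀ {x : ℝ → Fin d → ℝ}, PosSol R k x → ∀ T, PosSolOn R k x T :=
      fun hx T t ht _ => hx t ht
    have hmem : ∀ {x : ℝ → Fin d → ℝ}, x 0 ∈ posClass R c → PosSol R k x →
        ∀ t : ℝ, 0 ≤ t → x t ∈ posClass R c := by
      intro x hx0 hx t ht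
      refine ⟨(hx t ht).1, ?_⟩
      have h1 := sol_mem_class R k x (t + 1) (hOn hx (t + 1)) t ht (by linarith)
      have h2 := hx0.2
      have h3 : x t - c = (x t - x 0) + (x 0 - c) := by abel
      rw [h3]
      exact Submodule.add_mem _ h1 h2
    refine ⟨?_, ?_⟩
    · intro x0 hx0
      obtain ⟨M, hM⟩ := apriori_bound HR R k hk hwr x0 hx0.1
      obtain ⟨x, hx1, hx2⟩ := exists_global R k hk x0 hx0.1 M hM
      refine ⟨x, hx1, hx2, hmem (by rw [hx1]; exact hx0) hx2, ?_⟩
      intro T y hy0 hy t ht htT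
      exact sol_unique R k y x T hy (hOn hx2 T) (by rw [hy0, hx1]) t ht htT
    · obtain ⟨A, hA⟩ := eventual HR R k hk hwr
      obtain ⟨M, _, hM⟩ := class_bound R c hc A
      refine ⟨{x | x ∈ posClass R c ∧ ∀ i, |Real.log (x i)| ≤ M}, box_compact R c M,
        fun x hx => hx.1, ?_⟩
      intro x hx0 hx
      obtain ⟨T, hT⟩ := hA x hx (persistent HR R k hk hwr x hx)
      refine ⟨max T 0, fun t ht => ?_⟩
      have h1 : x t ∈ posClass R c := hmem hx0 hx t ((le_max_right _ _).trans ht)
      obtain ⟨ρ, hρ1, hρ2⟩ := hT t ((le_max_left _ _).trans ht)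
      exact ⟨h1, hM (x t) h1 ρ hρ1 hρ2⟩
  · intro ε hε
    obtain ⟨A, hA⟩ := eventualT HR R hwr ε hε
    obtain ⟨M, _, hM⟩ := class_bound R c hc A
    refine ⟨{x | x ∈ posClass R c ∧ ∀ i, |Real.log (x i)| ≤ M}, box_compact R c M,
      fun x hx => hx.1, ?_⟩
    intro k hk
    have hmem : ∀ {x : ℝ → Fin d → ℝ}, x 0 ∈ posClass R c → TSol R k x →
        ∀ t : ℝ, 0 ≤ t → x t ∈ posClass R c := by
      intro x hx0 hx t ht
      refine ⟨(hx.2 t ht).1, ?_⟩
      have h1 := sol_mem_classT R ε hε k hk x (t + 1) (hx.tsolOn (t + 1)) t ht (by linarith)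
      have h2 := hx0.2
      have h3 : x t - c = (x t - x 0) + (x 0 - c) := by abel
      rw [h3]
      exact Submodule.add_mem _ h1 h2
    refine ⟨?_, ?_⟩
    · intro x0 hx0
      obtain ⟨M, hM⟩ := apriori_boundT HR R hwr ε hε k hk x0 hx0.1
      obtain ⟨x, hx1, hx2⟩ := exists_globalT R ε hε k hk x0 hx0.1 M hM
      refine ⟨x, hx1, hx2, hmem (by rw [hx1]; exact hx0) hx2, ?_⟩
      intro T y hy0 hy t ht htT
      exact sol_uniqueT R ε hε k hk y x T hy (hx2.tsolOn T) (by rw [hy0, hx1]) t ht htT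
    · intro x hx0 hx
      obtain ⟨T, hT⟩ := hA k hk x hx (persistentT HR R hwr ε hε k hk x hx)
      refine ⟨max T 0, fun t ht => ?_⟩
      have h1 : x t ∈ posClass R c := hmem hx0 hx t ((le_max_right _ _).trans ht)
      obtain ⟨ρ, hρ1, hρ2⟩ := hT t ((le_max_left _ _).trans ht)
      exact ⟨h1, hM (x t) h1 ρ hρ1 hρ2⟩

end Vale.Agent.Results.P072.TimeDependentRates
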